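import Vale.Agent.P224.R2.H545.Par

/-!
Columns of the closing list, part 2.
-/

namespace Vale.Agent.P224.R2.H545

open Vale.Agent.P224.R2.H460 Vale.Agent.P224.R2.H662
open Vale.Agent.P224.R2.H255 (risB)
open Vale.Agent.P224.R2.H579 (elsB)

/-- the column `(3 / 200, 7 / 400]` -/
def col7 : ColS :=
  mkCol 400 risB (7 / 400) (some (961 / 10000, 7 / 10000)) (17 / 2500)
   [⟨1 / 5000, 27 / 10000, 229, 19, 250, 9443 / 10000, 23 / 2, 17 / 5, 1177 / 1000, 809 / 50000,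
     (some 18), false⟩,
    ⟨1 / 2000, 49 / 10000, 42, 19, 250, 9453 / 10000, 56 / 5, 33 / 10, 1177 / 1000,
     1663 / 100000, (some 19), false⟩,
    ⟨3 / 4000, 137 / 20000, 44, 19, 250, 591 / 625, 56 / 5, 16 / 5, 1177 / 1000, 52 / 3125,
     (some 20), false⟩,
    ⟨1 / 1000, 89 / 10000, 46, 19, 250, 2363 / 2500, 56 / 5, 16 / 5, 1177 / 1000, 52 / 3125,
     (some 21), false⟩,
    ⟨2 / 125, 353 / 20000, 46, 19, 250, 2317 / 2500, 231 / 20, 31 / 10, 1177 / 1000,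
     1567 / 100000, none, false⟩,
    ⟨31 / 100, 23 / 20000, 47, 14, 250, 1263 / 2000, 221 / 20, 5 / 2, 9 / 8, 99 / 12500, none,
     true⟩]

theorem col7_ok : col7.ok par risB elsB (3 / 200) = true := by decide +kernel

/-- the column `(7 / 400, 1 / 50]` -/
def col8 : ColS :=
  mkCol 400 risB (1 / 50) (some (943 / 10000, 9 / 10000)) (17 / 2500)
   [⟨1 / 5000, 3 / 1000, 230, 19, 250, 9423 / 10000, 233 / 20, 7 / 2, 1177 / 1000, 1593 / 100000,
     (some 24), false⟩,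
    ⟨1 / 2000, 27 / 5000, 53, 19, 250, 9429 / 10000, 227 / 20, 33 / 10, 1177 / 1000, 409 / 25000,
     (some 25), false⟩,
    ⟨3 / 4000, 19 / 2500, 55, 19, 250, 4707 / 5000, 113 / 10, 33 / 10, 1177 / 1000, 819 / 50000,
     (some 26), false⟩,
    ⟨1 / 1000, 99 / 10000, 56, 19, 250, 9421 / 10000, 227 / 20, 33 / 10, 1177 / 1000,
     327 / 20000, (some 27), false⟩,
    ⟨2 / 125, 353 / 20000, 57, 19, 250, 9243 / 10000, 117 / 10, 16 / 5, 1177 / 1000, 77 / 5000,
     none, false⟩,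
    ⟨31 / 100, 23 / 20000, 59, 14, 250, 3139 / 5000, 111 / 10, 13 / 5, 9 / 8, 39 / 5000, none,
     true⟩]

theorem col8_ok : col8.ok par risB elsB (7 / 400) = true := by decide +kernel

/-- the column `(1 / 50, 9 / 400]` -/
def col9 : ColS :=
  mkCol 400 risB (9 / 400) (some (927 / 10000, 1 / 1000)) (17 / 2500)
   [⟨1 / 5000, 33 / 10000, 231, 19, 250, 587 / 625, 59 / 5, 7 / 2, 1177 / 1000, 391 / 25000,
     (some 30), false⟩,
    ⟨1 / 2000, 119 / 20000, 64, 19, 250, 587 / 625, 229 / 20, 17 / 5, 1177 / 1000, 1611 / 100000,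
     (some 31), false⟩,
    ⟨3 / 4000, 21 / 2500, 66, 19, 250, 587 / 625, 229 / 20, 33 / 10, 1177 / 1000, 403 / 25000,
     (some 32), false⟩,
    ⟨1 / 1000, 109 / 10000, 68, 19, 250, 939 / 1000, 229 / 20, 33 / 10, 1177 / 1000, 403 / 25000,
     (some 33), false⟩,
    ⟨2 / 125, 353 / 20000, 68, 18, 250, 1151 / 1250, 59 / 5, 33 / 10, 1167 / 1000, 379 / 25000,
     none, false⟩,
    ⟨31 / 100, 23 / 20000, 69, 13, 250, 6249 / 10000, 45 / 4, 27 / 10, 223 / 200, 381 / 50000,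
     none, true⟩]

theorem col9_ok : col9.ok par risB elsB (1 / 50) = true := by decide +kernel

end Vale.Agent.P224.R2.H545
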