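import Vale.Agent.P224.R2.H545.Par

/-!
Columns of the closing list, part 3.
-/

namespace Vale.Agent.P224.R2.H545

open Vale.Agent.P224.R2.H460 Vale.Agent.P224.R2.H662
open Vale.Agent.P224.R2.H255 (risB)
open Vale.Agent.P224.R2.H579 (elsB)

/-- the column `(9 / 400, 1 / 40]` -/
def col10 : ColS :=
  mkCol 400 risB (1 / 40) (some (57 / 625, 11 / 10000)) (17 / 2500)
   [⟨1 / 5000, 9 / 2500, 232, 18, 250, 117 / 125, 119 / 10, 18 / 5, 1167 / 1000, 1541 / 100000,
     (some 36), false⟩,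
    ⟨1 / 2000, 33 / 5000, 73, 19, 250, 9361 / 10000, 58 / 5, 17 / 5, 1177 / 1000, 791 / 50000,
     (some 37), false⟩,
    ⟨3 / 4000, 23 / 2500, 76, 19, 250, 9363 / 10000, 231 / 20, 33 / 10, 1177 / 1000, 159 / 10000,
     (some 38), false⟩,
    ⟨1 / 1000, 3 / 250, 77, 19, 250, 2339 / 2500, 231 / 20, 33 / 10, 1177 / 1000, 397 / 25000,
     (some 39), false⟩,
    ⟨2 / 125, 353 / 20000, 78, 18, 250, 9181 / 10000, 119 / 10, 33 / 10, 1167 / 1000,
     187 / 12500, none, false⟩,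
    ⟨31 / 100, 23 / 20000, 79, 13, 250, 311 / 500, 227 / 20, 27 / 10, 223 / 200, 749 / 100000,
     none, true⟩]

theorem col10_ok : col10.ok par risB elsB (9 / 400) = true := by decide +kernel

/-- the column `(1 / 40, 11 / 400]` -/
def col11 : ColS :=
  mkCol 400 risB (11 / 400) (some (449 / 5000, 13 / 10000)) (17 / 2500)
   [⟨1 / 5000, 39 / 10000, 233, 18, 250, 4661 / 5000, 12, 37 / 10, 1167 / 1000, 759 / 50000,
     (some 42), false⟩,
    ⟨1 / 2000, 143 / 20000, 83, 19, 250, 933 / 1000, 117 / 10, 17 / 5, 1177 / 1000,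
     1559 / 100000, (some 43), false⟩,
    ⟨3 / 4000, 201 / 20000, 85, 19, 250, 4663 / 5000, 233 / 20, 17 / 5, 1177 / 1000, 313 / 20000,
     (some 44), false⟩,
    ⟨1 / 1000, 263 / 20000, 86, 19, 250, 9327 / 10000, 117 / 10, 17 / 5, 1177 / 1000, 39 / 2500,
     (some 45), false⟩,
    ⟨2 / 125, 353 / 20000, 87, 18, 250, 9143 / 10000, 12, 33 / 10, 1167 / 1000, 1473 / 100000,
     none, false⟩,
    ⟨31 / 100, 23 / 20000, 89, 13, 250, 619 / 1000, 229 / 20, 27 / 10, 223 / 200, 737 / 100000,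
     none, true⟩]

theorem col11_ok : col11.ok par risB elsB (1 / 40) = true := by decide +kernel

/-- the column `(11 / 400, 3 / 100]` -/
def col12 : ColS :=
  mkCol 400 risB (3 / 100) (some (443 / 5000, 7 / 5000)) (17 / 2500)
   [⟨1 / 5000, 17 / 4000, 234, 18, 250, 4649 / 5000, 243 / 20, 37 / 10, 1167 / 1000, 747 / 50000,
     (some 48), false⟩,
    ⟨1 / 2000, 157 / 20000, 92, 18, 250, 93 / 100, 237 / 20, 18 / 5, 1167 / 1000, 1531 / 100000,
     (some 49), false⟩,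
    ⟨3 / 4000, 219 / 20000, 94, 19, 250, 9299 / 10000, 59 / 5, 17 / 5, 1177 / 1000, 769 / 50000,
     (some 50), false⟩,
    ⟨1 / 1000, 143 / 10000, 95, 18, 250, 1859 / 2000, 59 / 5, 7 / 2, 1167 / 1000, 1537 / 100000,
     (some 51), false⟩,
    ⟨2 / 125, 353 / 20000, 96, 18, 250, 9119 / 10000, 243 / 20, 17 / 5, 1167 / 1000,
     1449 / 100000, none, false⟩,
    ⟨31 / 100, 23 / 20000, 97, 13, 250, 1539 / 2500, 58 / 5, 27 / 10, 223 / 200, 9 / 1250, none,
     true⟩]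

theorem col12_ok : col12.ok par risB elsB (11 / 400) = true := by decide +kernel

end Vale.Agent.P224.R2.H545
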