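import Vale.Agent.P224.R2.H545.Par

/-!
Columns of the closing list, part 4.
-/

namespace Vale.Agent.P224.R2.H545

open Vale.Agent.P224.R2.H460 Vale.Agent.P224.R2.H662
open Vale.Agent.P224.R2.H255 (risB)
open Vale.Agent.P224.R2.H579 (elsB)

/-- the column `(3 / 100, 13 / 400]` -/
def col13 : ColS :=
  mkCol 400 risB (13 / 400) (some (437 / 5000, 1 / 625)) (17 / 2500)
   [⟨1 / 5000, 23 / 5000, 235, 18, 250, 9267 / 10000, 49 / 4, 37 / 10, 1167 / 1000, 46 / 3125,
     (some 54), false⟩,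
    ⟨1 / 2000, 17 / 2000, 100, 18, 250, 9271 / 10000, 239 / 20, 18 / 5, 1167 / 1000, 151 / 10000,
     (some 55), false⟩,
    ⟨3 / 4000, 3 / 250, 101, 18, 250, 9267 / 10000, 239 / 20, 7 / 2, 1167 / 1000, 151 / 10000,
     (some 56), false⟩,
    ⟨1 / 1000, 311 / 20000, 102, 18, 250, 9263 / 10000, 239 / 20, 7 / 2, 1167 / 1000,
     151 / 10000, (some 57), false⟩,
    ⟨4 / 125, 353 / 20000, 103, 17, 250, 2229 / 2500, 62 / 5, 17 / 5, 289 / 250, 273 / 20000,
     none, false⟩,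
    ⟨31 / 100, 3 / 5000, 105, 13, 250, 6123 / 10000, 58 / 5, 14 / 5, 223 / 200, 89 / 12500, none,
     true⟩]

theorem col13_ok : col13.ok par risB elsB (3 / 100) = true := by decide +kernel

/-- the column `(13 / 400, 7 / 200]` -/
def col14 : ColS :=
  mkCol 400 risB (7 / 200) (some (863 / 10000, 17 / 10000)) (17 / 2500)
   [⟨1 / 5000, 99 / 20000, 236, 18, 250, 4617 / 5000, 247 / 20, 19 / 5, 1167 / 1000,
     1451 / 100000, (some 60), false⟩,
    ⟨1 / 2000, 37 / 4000, 108, 18, 250, 9239 / 10000, 241 / 20, 18 / 5, 1167 / 1000,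
     1489 / 100000, (some 61), false⟩,
    ⟨3 / 4000, 13 / 1000, 109, 18, 250, 2309 / 2500, 241 / 20, 18 / 5, 1167 / 1000, 149 / 10000,
     (some 62), false⟩,
    ⟨1 / 1000, 337 / 20000, 110, 18, 250, 1153 / 1250, 12, 7 / 2, 1167 / 1000, 373 / 25000,
     (some 63), false⟩,
    ⟨4 / 125, 353 / 20000, 110, 17, 250, 111 / 125, 25 / 2, 17 / 5, 289 / 250, 42 / 3125, none,
     false⟩,
    ⟨31 / 100, 3 / 5000, 113, 13, 250, 381 / 625, 117 / 10, 14 / 5, 223 / 200, 7 / 1000, none,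
     true⟩]

theorem col14_ok : col14.ok par risB elsB (13 / 400) = true := by decide +kernel

/-- the column `(7 / 200, 3 / 80]` -/
def col15 : ColS :=
  mkCol 400 risB (3 / 80) (some (853 / 10000, 19 / 10000)) (77 / 10000)
   [⟨1 / 5000, 107 / 20000, 237, 17, 250, 2301 / 2500, 249 / 20, 39 / 10, 289 / 250,
     1431 / 100000, (some 66), false⟩,
    ⟨1 / 2000, 201 / 20000, 115, 18, 250, 23 / 25, 49 / 4, 37 / 10, 1167 / 1000, 727 / 50000,
     (some 67), false⟩,
    ⟨3 / 4000, 283 / 20000, 117, 18, 250, 9197 / 10000, 121 / 10, 18 / 5, 1167 / 1000, 46 / 3125,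
     (some 68), false⟩,
    ⟨1 / 1000, 363 / 20000, 117, 18, 250, 919 / 1000, 243 / 20, 18 / 5, 1167 / 1000, 183 / 12500,
     (some 69), false⟩,
    ⟨2 / 125, 353 / 20000, 118, 17, 250, 4511 / 5000, 249 / 20, 7 / 2, 289 / 250, 347 / 25000,
     none, false⟩,
    ⟨31 / 100, 23 / 20000, 238, 12, 250, 6063 / 10000, 59 / 5, 29 / 10, 221 / 200, 687 / 100000,
     none, true⟩]

theorem col15_ok : col15.ok par risB elsB (7 / 200) = true := by decide +kernel

end Vale.Agent.P224.R2.H545
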