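import Vale.Agent.P224.R2.H545.Par

/-!
Columns of the closing list, part 5.
-/

namespace Vale.Agent.P224.R2.H545

open Vale.Agent.P224.R2.H460 Vale.Agent.P224.R2.H662
open Vale.Agent.P224.R2.H255 (risB)
open Vale.Agent.P224.R2.H579 (elsB)

/-- the column `(3 / 80, 1 / 25]` -/
def col16 : ColS :=
  mkCol 400 risB (1 / 25) (some (843 / 10000, 1 / 500)) (77 / 10000)
   [⟨1 / 5000, 23 / 4000, 239, 17, 250, 2293 / 2500, 251 / 20, 39 / 10, 289 / 250, 353 / 25000,
     (some 72), false⟩,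
    ⟨1 / 2000, 109 / 10000, 122, 17, 250, 9173 / 10000, 247 / 20, 19 / 5, 289 / 250, 287 / 20000,
     (some 73), false⟩,
    ⟨3 / 4000, 19 / 1250, 123, 18, 250, 9171 / 10000, 123 / 10, 18 / 5, 1167 / 1000,
     1441 / 100000, (some 74), false⟩,
    ⟨1 / 1000, 79 / 4000, 124, 18, 250, 2291 / 2500, 49 / 4, 18 / 5, 1167 / 1000, 289 / 20000,
     (some 75), false⟩,
    ⟨4 / 125, 353 / 20000, 124, 16, 250, 8819 / 10000, 51 / 4, 18 / 5, 573 / 500, 1301 / 100000,
     none, false⟩,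
    ⟨31 / 100, 3 / 5000, 240, 12, 250, 1207 / 2000, 237 / 20, 29 / 10, 221 / 200, 339 / 50000,
     none, true⟩]

theorem col16_ok : col16.ok par risB elsB (3 / 80) = true := by decide +kernel

/-- the column `(1 / 25, 17 / 400]` -/
def col17 : ColS :=
  mkCol 400 risB (17 / 400) (some (417 / 5000, 11 / 5000)) (21 / 2500)
   [⟨1 / 5000, 123 / 20000, 241, 17, 250, 4571 / 5000, 253 / 20, 39 / 10, 289 / 250,
     1393 / 100000, (some 78), false⟩,
    ⟨1 / 2000, 237 / 20000, 129, 17, 250, 9143 / 10000, 249 / 20, 19 / 5, 289 / 250, 177 / 12500,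
     (some 79), false⟩,
    ⟨3 / 4000, 329 / 20000, 130, 17, 250, 9137 / 10000, 247 / 20, 37 / 10, 289 / 250,
     713 / 50000, (some 80), false⟩,
    ⟨3 / 500, 471 / 20000, 131, 35, 500, 9271 / 10000, 249 / 20, 37 / 10, 581 / 500, 91 / 6250,
     none, false⟩,
    ⟨12 / 125, 59 / 20000, 242, 16, 250, 2037 / 2500, 251 / 20, 33 / 10, 573 / 500,
     1139 / 100000, none, false⟩,
    ⟨31 / 100, 1 / 5000, 242, 12, 250, 6003 / 10000, 237 / 20, 29 / 10, 221 / 200, 671 / 100000,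
     none, true⟩]

theorem col17_ok : col17.ok par risB elsB (1 / 25) = true := by decide +kernel

/-- the column `(17 / 400, 9 / 200]` -/
def col18 : ColS :=
  mkCol 400 risB (9 / 200) (some (33 / 400, 23 / 10000)) (21 / 2500)
   [⟨1 / 5000, 33 / 5000, 243, 17, 250, 911 / 1000, 51 / 4, 4, 289 / 250, 1373 / 100000,
     (some 84), false⟩,
    ⟨1 / 2000, 51 / 4000, 136, 17, 250, 911 / 1000, 251 / 20, 19 / 5, 289 / 250, 349 / 25000,
     (some 85), false⟩,
    ⟨3 / 4000, 71 / 4000, 137, 17, 250, 9109 / 10000, 249 / 20, 19 / 5, 289 / 250, 1407 / 100000,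
     (some 86), false⟩,
    ⟨3 / 250, 471 / 20000, 138, 17, 250, 1793 / 2000, 51 / 4, 18 / 5, 289 / 250, 67 / 5000, none,
     false⟩,
    ⟨31 / 100, 3 / 2000, 244, 12, 250, 597 / 1000, 241 / 20, 29 / 10, 221 / 200, 131 / 20000,
     none, true⟩]

theorem col18_ok : col18.ok par risB elsB (17 / 400) = true := by decide +kernel

end Vale.Agent.P224.R2.H545
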