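import Vale.Agent.P224.R2.H545.Par

/-!
Columns of the closing list, part 8.
-/

namespace Vale.Agent.P224.R2.H545

open Vale.Agent.P224.R2.H460 Vale.Agent.P224.R2.H662
open Vale.Agent.P224.R2.H255 (risB)
open Vale.Agent.P224.R2.H579 (elsB)

/-- the column `(7 / 100, 29 / 400]` -/
def col29 : ColS :=
  mkCol 400 risB (29 / 400) (some (751 / 10000, 21 / 5000)) (77 / 5000)
   [⟨1 / 5000, 11 / 800, 253, 15, 250, 8751 / 10000, 69 / 5, 22 / 5, 227 / 200, 1183 / 100000,
     (some 134), false⟩,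
    ⟨1 / 625, 441 / 5000, 184, 14, 250, 87 / 100, 143 / 10, 22 / 5, 9 / 8, 227 / 20000, none,
     false⟩,
    ⟨1 / 250, 221 / 20000, 186, 15, 250, 8717 / 10000, 267 / 20, 41 / 10, 227 / 200, 607 / 50000,
     none, false⟩,
    ⟨3 / 250, 89 / 20000, 187, 64, 1000, 8963 / 10000, 263 / 20, 4, 573 / 500, 1297 / 100000,
     none, true⟩,
    ⟨31 / 100, 3 / 2000, 189, 11, 250, 2799 / 5000, 51 / 4, 31 / 10, 137 / 125, 547 / 100000,
     none, true⟩]

theorem col29_ok : col29.ok par risB elsB (7 / 100) = true := by decide +kernel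

/-- the column `(29 / 400, 3 / 40]` -/
def col30 : ColS :=
  mkCol 400 risB (3 / 40) (some (373 / 5000, 11 / 2500)) (77 / 5000)
   [⟨1 / 5000, 73 / 5000, 253, 15, 250, 8721 / 10000, 69 / 5, 22 / 5, 227 / 200, 47 / 4000,
     (some 136), false⟩,
    ⟨2 / 625, 441 / 5000, 184, 14, 250, 8649 / 10000, 289 / 20, 43 / 10, 9 / 8, 1113 / 100000,
     none, false⟩,
    ⟨9 / 2000, 111 / 20000, 186, 15, 250, 2171 / 2500, 133 / 10, 41 / 10, 227 / 200,
     1209 / 100000, none, false⟩,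
    ⟨9 / 250, 79 / 20000, 187, 15, 250, 417 / 500, 271 / 20, 39 / 10, 227 / 200, 221 / 20000,
     none, true⟩,
    ⟨31 / 100, 1 / 2000, 190, 11, 250, 5577 / 10000, 253 / 20, 3, 137 / 125, 547 / 100000, none,
     true⟩]

theorem col30_ok : col30.ok par risB elsB (29 / 400) = true := by decide +kernel

/-- the column `(3 / 40, 31 / 400]` -/
def col31 : ColS :=
  mkCol 400 risB (31 / 400) (some (741 / 10000, 9 / 2000)) (169 / 10000)
   [⟨1 / 5000, 39 / 2500, 254, 15, 250, 4343 / 5000, 279 / 20, 22 / 5, 227 / 200, 577 / 50000,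
     (some 138), false⟩,
    ⟨1 / 625, 441 / 5000, 191, 14, 250, 1727 / 2000, 289 / 20, 22 / 5, 9 / 8, 1109 / 100000,
     none, false⟩,
    ⟨2 / 625, 221 / 20000, 192, 15, 250, 8651 / 10000, 273 / 20, 21 / 5, 227 / 200, 293 / 25000,
     none, false⟩,
    ⟨9 / 2000, 111 / 20000, 193, 64, 1000, 8977 / 10000, 66 / 5, 21 / 5, 573 / 500, 647 / 50000,
     none, false⟩,
    ⟨9 / 250, 79 / 20000, 194, 15, 250, 8303 / 10000, 273 / 20, 39 / 10, 227 / 200,
     1087 / 100000, none, true⟩,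
    ⟨31 / 100, 1 / 2000, 197, 11, 250, 5523 / 10000, 253 / 20, 31 / 10, 137 / 125, 537 / 100000,
     none, true⟩]

theorem col31_ok : col31.ok par risB elsB (3 / 40) = true := by decide +kernel

end Vale.Agent.P224.R2.H545
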