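import Vale.Agent.P224.R2.H545.Par

/-!
Columns of the closing list, part 9.
-/

namespace Vale.Agent.P224.R2.H545

open Vale.Agent.P224.R2.H460 Vale.Agent.P224.R2.H662
open Vale.Agent.P224.R2.H255 (risB)
open Vale.Agent.P224.R2.H579 (elsB)

/-- the column `(31 / 400, 2 / 25]` -/
def col32 : ColS :=
  mkCol 400 risB (2 / 25) (some (46 / 625, 47 / 10000)) (169 / 10000)
   [⟨1 / 5000, 83 / 5000, 254, 15, 250, 8653 / 10000, 279 / 20, 22 / 5, 227 / 200, 573 / 50000,
     (some 140), false⟩,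
    ⟨2 / 625, 441 / 5000, 191, 14, 250, 8583 / 10000, 73 / 5, 43 / 10, 9 / 8, 1087 / 100000,
     none, false⟩,
    ⟨9 / 2000, 111 / 20000, 193, 31, 500, 4421 / 5000, 133 / 10, 41 / 10, 1141 / 1000, 1 / 80,
     none, false⟩,
    ⟨9 / 250, 79 / 20000, 194, 14, 250, 8277 / 10000, 137 / 10, 4, 9 / 8, 1077 / 100000, none,
     true⟩,
    ⟨31 / 100, 1 / 2000, 197, 10, 250, 5527 / 10000, 257 / 20, 16 / 5, 543 / 500, 529 / 100000,
     none, true⟩]

theorem col32_ok : col32.ok par risB elsB (31 / 400) = true := by decide +kernel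

/-- the column `(2 / 25, 33 / 400]` -/
def col33 : ColS :=
  mkCol 400 risB (33 / 400) (some (731 / 10000, 49 / 10000)) (93 / 5000)
   [⟨1 / 5000, 177 / 10000, 255, 14, 250, 1723 / 2000, 57 / 4, 23 / 5, 9 / 8, 1113 / 100000,
     (some 142), false⟩,
    ⟨1 / 625, 441 / 5000, 198, 14, 250, 8567 / 10000, 59 / 4, 22 / 5, 9 / 8, 1071 / 100000, none,
     false⟩,
    ⟨2 / 625, 221 / 20000, 199, 15, 250, 4293 / 5000, 139 / 10, 43 / 10, 227 / 200, 227 / 20000,
     none, false⟩,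
    ⟨1 / 250, 111 / 20000, 200, 126, 2000, 8971 / 10000, 267 / 20, 43 / 10, 143 / 125,
     1277 / 100000, none, false⟩,
    ⟨4 / 125, 89 / 20000, 200, 14, 250, 331 / 400, 14, 41 / 10, 9 / 8, 211 / 20000, none, true⟩,
    ⟨31 / 100, 3 / 5000, 204, 10, 250, 5489 / 10000, 13, 16 / 5, 543 / 500, 517 / 100000, none,
     true⟩]

theorem col33_ok : col33.ok par risB elsB (2 / 25) = true := by decide +kernel

/-- the column `(33 / 400, 17 / 200]` -/
def col34 : ColS :=
  mkCol 400 risB (17 / 200) (some (363 / 5000, 51 / 10000)) (93 / 5000)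
   [⟨1 / 5000, 377 / 20000, 255, 14, 250, 4291 / 5000, 57 / 4, 23 / 5, 9 / 8, 553 / 50000,
     (some 144), false⟩,
    ⟨2 / 625, 441 / 5000, 198, 14, 250, 8511 / 10000, 297 / 20, 22 / 5, 9 / 8, 263 / 25000, none,
     false⟩,
    ⟨4 / 625, 111 / 20000, 200, 30, 500, 4377 / 5000, 271 / 20, 43 / 10, 142 / 125, 241 / 20000,
     none, true⟩,
    ⟨128 / 625, 7 / 2500, 201, 11, 250, 6481 / 10000, 55 / 4, 18 / 5, 137 / 125, 337 / 50000,
     none, true⟩,
    ⟨31 / 100, 1 / 10000, 204, 10, 250, 5461 / 10000, 259 / 20, 16 / 5, 543 / 500, 513 / 100000,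
     none, true⟩]

theorem col34_ok : col34.ok par risB elsB (33 / 400) = true := by decide +kernel

end Vale.Agent.P224.R2.H545
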