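import Vale.Agent.P224.R2.H545.Col1
import Vale.Agent.P224.R2.H545.Col2
import Vale.Agent.P224.R2.H545.Col3
import Vale.Agent.P224.R2.H545.Col4
import Vale.Agent.P224.R2.H545.Col5
import Vale.Agent.P224.R2.H545.Col6
import Vale.Agent.P224.R2.H545.Col7
import Vale.Agent.P224.R2.H545.Col8
import Vale.Agent.P224.R2.H545.Col9
import Vale.Agent.P224.R2.H545.Col10
import Vale.Agent.P224.R2.H545.Col11
import Vale.Agent.P224.R2.H255.SFacts

/-!
The closing list of the dimensions `400 ≤ m`.
-/

namespace Vale.Agent.P224.R2.H545

open Vale.Agent.P224.R2.H460 Vale.Agent.P224.R2.H662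
open Vale.Agent.P224.R2.H255 (risA elsA risB)
open Vale.Agent.P224.R2.H579 (elsB)

/-- the column `(0, 1 / 80]` -/
def colA : ColS :=
  mkCol 400 risA (1 / 80) none (17 / 2500)
   [⟨11 / 10000, 257 / 20000, 0, 18, 250, 591 / 625, 253 / 20, 39 / 10, 1167 / 1000,
     1489 / 100000, (some 0), false⟩,
    ⟨33 / 5000, 321 / 20000, 0, 17, 250, 4697 / 5000, 259 / 20, 4, 289 / 250, 1443 / 100000,
     none, false⟩,
    ⟨132 / 625, 27 / 10000, 0, 13, 250, 456 / 625, 53 / 4, 7 / 2, 223 / 200, 11 / 1250, none,
     false⟩,
    ⟨31 / 100, 1 / 10000, 0, 12, 250, 6311 / 10000, 257 / 20, 16 / 5, 221 / 200, 343 / 50000,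
     none, true⟩]

theorem colA_ok : colA.ok par risA elsA 0 = true := by decide +kernel

/-- the columns for the small weights -/
def colsA : List ColS := [colA]

/-- the columns for the large weights -/
def colsB : List ColS :=
  [col2, col4, col6, col7, col8, col9, col10, col11, col12, col13, col14, col15, col16,
   col17, col18, col19, col20, col21, col22, col23, col24, col25, col26, col27, col28,
   col29, col30, col31, col32, col33, col34, col35, col36, col37, col38, col39, col40,
   col41, col42, col43, col44]

theorem cons_ok {p : ParS} {ris : List RaR} {els : List ElR} {νa : ℚ} {C : ColS}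
    {Cs : List ColS} (h1 : C.ok p ris els νa = true) (h2 : colsS p ris els C.νb Cs = true) :
    colsS p ris els νa (C :: Cs) = true := by
  simp only [colsS, h1, h2, Bool.and_self]

theorem colsA_ok : colsS par risA elsA 0 colsA = true := cons_ok colA_ok rfl

theorem colsB_ok : colsS par risB elsB 0 colsB = true :=
  cons_ok col2_ok <| cons_ok col4_ok <| cons_ok col6_ok <| cons_ok col7_ok <| cons_ok col8_ok <|
  cons_ok col9_ok <| cons_ok col10_ok <| cons_ok col11_ok <| cons_ok col12_ok <|
  cons_ok col13_ok <| cons_ok col14_ok <| cons_ok col15_ok <| cons_ok col16_ok <|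
  cons_ok col17_ok <| cons_ok col18_ok <| cons_ok col19_ok <| cons_ok col20_ok <|
  cons_ok col21_ok <| cons_ok col22_ok <| cons_ok col23_ok <| cons_ok col24_ok <|
  cons_ok col25_ok <| cons_ok col26_ok <| cons_ok col27_ok <| cons_ok col28_ok <|
  cons_ok col29_ok <| cons_ok col30_ok <| cons_ok col31_ok <| cons_ok col32_ok <|
  cons_ok col33_ok <| cons_ok col34_ok <| cons_ok col35_ok <| cons_ok col36_ok <|
  cons_ok col37_ok <| cons_ok col38_ok <| cons_ok col39_ok <| cons_ok col40_ok <|
  cons_ok col41_ok <| cons_ok col42_ok <| cons_ok col43_ok <| cons_ok col44_ok <| rfl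

/-- **The conditions of the closing argument hold.** -/
theorem all_ok : allOK par risA risB elsA elsB colsA colsB = true := by
  have h1 : tlsOK par = true := by decide +kernel
  have h2 : decide (400 ≤ par.m0) = true := by decide +kernel
  have h3 : decide (par.g = 474 / 1000) = true := by decide +kernel
  have h4 : decide (par.ε0 = 1 / 500) = true := by decide +kernel
  have h5 : decide (3 / 10 ≤ par.h1) = true := by decide +kernel
  have h6 : decide (5 ≤ lastS 0 colsA * par.m0) = true := by decide +kernel
  have h7 : decide (11 / 100 ≤ lastS 0 colsB) = true := by decide +kernel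
  unfold allOK
  rw [h1, h2, h3, h4, h5, colsA_ok, colsB_ok, h6, h7]
  rfl

end Vale.Agent.P224.R2.H545
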