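import Vale.Agent.P224.R2.H545.Gen
import Vale.Agent.P224.R2.H255.RisB
import Vale.Agent.P224.R2.H579.ElB

/-!
The parameters of the closing list.
-/

namespace Vale.Agent.P224.R2.H545

open Vale.Agent.P224.R2.H460

/-- the parameters: dimension, bound of the mean normal, coefficient of the mean normal, absolute
tail, margin, last defect, relative tails -/
def par : ParS :=
  { m0 := 400, nuf := 21 / 5000, g := 237 / 500, ab := 13 / 200000, ε0 := 1 / 500, h1 := 3 / 10
    tls := [(73 / 2000, 17 / 2500), (17 / 400, 77 / 10000), (19 / 400, 21 / 2500), (139 / 2500,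
            49 / 5000), (67 / 1000, 119 / 10000), (189 / 2500, 139 / 10000), (163 / 2000,
            77 / 5000), (7 / 80, 169 / 10000), (233 / 2500, 93 / 5000), (41 / 400, 43 / 2000),
            (229 / 2000, 257 / 10000), (13 / 100, 91 / 2000)] }

end Vale.Agent.P224.R2.H545
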