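import Vale.Agent.P224.R2.H545.Par

/-!
Columns of the closing list, part 1.
-/

namespace Vale.Agent.P224.R2.H545

open Vale.Agent.P224.R2.H460 Vale.Agent.P224.R2.H662
open Vale.Agent.P224.R2.H255 (risB)
open Vale.Agent.P224.R2.H579 (elsB)

/-- the column `(0, 1 / 200]` -/
def col2 : ColS :=
  mkCol 400 risB (1 / 200) none (17 / 2500)
   [⟨1 / 5000, 7 / 5000, 226, 19, 250, 1199 / 1250, 11, 33 / 10, 1177 / 1000, 173 / 10000,
     (some 0), false⟩,
    ⟨1 / 2000, 49 / 20000, 11, 19, 250, 1919 / 2000, 107 / 10, 31 / 10, 1177 / 1000, 443 / 25000,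
     (some 1), false⟩,
    ⟨3 / 4000, 7 / 2000, 11, 19, 250, 1921 / 2000, 43 / 4, 31 / 10, 1177 / 1000, 177 / 10000,
     (some 2), false⟩,
    ⟨1 / 1000, 23 / 5000, 11, 19, 250, 9587 / 10000, 43 / 4, 31 / 10, 1177 / 1000, 441 / 25000,
     (some 3), false⟩,
    ⟨4 / 125, 353 / 20000, 11, 19, 250, 9253 / 10000, 45 / 4, 3, 1177 / 1000, 801 / 50000, none,
     false⟩,
    ⟨31 / 100, 3 / 5000, 11, 15, 250, 6469 / 10000, 213 / 20, 12 / 5, 227 / 200, 859 / 100000,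
     none, true⟩]

theorem col2_ok : col2.ok par risB elsB (0) = true := by decide +kernel

/-- the column `(1 / 200, 1 / 100]` -/
def col4 : ColS :=
  mkCol 400 risB (1 / 100) none (17 / 2500)
   [⟨1 / 5000, 19 / 10000, 226, 19, 250, 2387 / 2500, 221 / 20, 33 / 10, 1177 / 1000,
     1711 / 100000, (some 6), false⟩,
    ⟨1 / 2000, 17 / 5000, 11, 19, 250, 9549 / 10000, 43 / 4, 31 / 10, 1177 / 1000, 219 / 12500,
     (some 7), false⟩,
    ⟨3 / 4000, 97 / 20000, 11, 19, 250, 9551 / 10000, 54 / 5, 31 / 10, 1177 / 1000,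
     1747 / 100000, (some 8), false⟩,
    ⟨1 / 1000, 1 / 160, 11, 19, 250, 1907 / 2000, 54 / 5, 31 / 10, 1177 / 1000, 871 / 50000,
     (some 9), false⟩,
    ⟨4 / 125, 353 / 20000, 11, 19, 250, 9199 / 10000, 113 / 10, 29 / 10, 1177 / 1000,
     1579 / 100000, none, false⟩,
    ⟨31 / 100, 3 / 5000, 11, 15, 250, 1281 / 2000, 213 / 20, 12 / 5, 227 / 200, 843 / 100000,
     none, true⟩]

theorem col4_ok : col4.ok par risB elsB (1 / 200) = true := by decide +kernel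

/-- the column `(1 / 100, 3 / 200]` -/
def col6 : ColS :=
  mkCol 400 risB (3 / 200) (some (491 / 5000, 3 / 5000)) (17 / 2500)
   [⟨1 / 5000, 49 / 20000, 228, 19, 250, 9473 / 10000, 227 / 20, 17 / 5, 1177 / 1000,
     1647 / 100000, (some 12), false⟩,
    ⟨1 / 2000, 87 / 20000, 31, 19, 250, 9481 / 10000, 221 / 20, 16 / 5, 1177 / 1000,
     1691 / 100000, (some 13), false⟩,
    ⟨3 / 4000, 123 / 20000, 34, 19, 250, 4743 / 5000, 221 / 20, 16 / 5, 1177 / 1000,
     1693 / 100000, (some 14), false⟩,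
    ⟨1 / 1000, 1 / 125, 35, 19, 250, 2369 / 2500, 221 / 20, 16 / 5, 1177 / 1000, 1691 / 100000,
     (some 15), false⟩,
    ⟨4 / 125, 353 / 20000, 35, 19, 250, 1827 / 2000, 231 / 20, 3, 1177 / 1000, 1527 / 100000,
     none, false⟩,
    ⟨31 / 100, 3 / 5000, 35, 14, 250, 1587 / 2500, 109 / 10, 5 / 2, 9 / 8, 81 / 10000, none,
     true⟩]

theorem col6_ok : col6.ok par risB elsB (1 / 100) = true := by decide +kernel

end Vale.Agent.P224.R2.H545
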